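import Mathlib
import Vale.Agent.Lib.P184.Defs
import Vale.Agent.Lib.P184.DefsAmenable
import Vale.Agent.Lib.P184.Amenable

/-!
# The `ℓ¹`-Bass conjecture: vanishing at undistorted elements with amenable centraliser
-/

namespace Vale.Agent.Results.P184.AmenableCentralizer

open Vale.Agent.Lib.P184

theorem result {G : Type*} [Group G] {Y : Type*} [PseudoMetricSpace Y] [MulAction G Y]
    [IsIsometricSMul G Y] (g : G) (o : Y) (l : ℝ) (hl : 0 < l)
    (hund : ∀ n : ℕ, n * l ≤ dist o (g ^ n • o))
    (ham : IsAmenableGroup (Subgroup.centralizer {g}))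
    (q : ℕ) (e : Fin q → Fin q → G → ℂ) (he : IsIdempotentL1 e) :
    hsCoeff e (ConjClasses.mk g) = 0 :=
  amenable_centralizer_vanishing he g o l hl hund ham

end Vale.Agent.Results.P184.AmenableCentralizer
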