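import Mathlib
import Vale.Agent.Lib.P184.Defs
import Vale.Agent.Lib.P184.DefsConj
import Vale.Agent.Lib.P184.Quad
import Vale.Agent.Lib.P184.Cat0

/-!
# The `ℓ¹`-Bass conjecture and isometric actions on spaces of nonpositive curvature
-/

namespace Vale.Agent.Results.P184.Cat0

open Vale.Agent.Lib.P184

theorem result {G : Type*} [Group G] {Y : Type*} [PseudoMetricSpace Y] [MulAction G Y]
    [IsIsometricSMul G Y]
    (hCN : ∀ x y : Y, ∃ m : Y, ∀ p : Y,
      dist p m ^ 2 ≤ (dist p x ^ 2 + dist p y ^ 2) / 2 - dist x y ^ 2 / 4) (o : Y) :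
    (∀ (q : ℕ) (e : Fin q → Fin q → G → ℂ), IsIdempotentL1 e →
      ∀ (g : G) (l : ℝ), 0 < l → (∀ n : ℕ, n * l ≤ dist o (g ^ n • o)) →
        hsCoeff e (ConjClasses.mk g) = 0) ∧
    ((∀ R : ℝ, {h : G | dist (h • o) o ≤ R}.Finite) →
      (∃ R0 : ℝ, ∀ p : Y, ∃ h : G, dist (h • o) p ≤ R0) → L1Bass G) := by
  refine ⟨fun q e he g l hl hund => quad_vanishing he (quad_of_cn hCN) g o l hl hund, ?_⟩
  rintro hproper ⟨R0, hcob⟩
  exact l1Bass_of_cn hCN o hproper R0 hcob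

end Vale.Agent.Results.P184.Cat0
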