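import Mathlib
import Vale.Agent.Lib.P184.Defs
import Vale.Agent.Lib.P184.Linear
import Vale.Agent.Lib.P184.CharP
import Vale.Agent.Lib.P184.AlgNumber

/-!
# The `ℓ¹`-Bass conjecture and linear representations
-/

namespace Vale.Agent.Results.P184.Linear

open Vale.Agent.Lib.P184

universe u

theorem result {G : Type*} [Group G] (q : ℕ) (e : Fin q → Fin q → G → ℂ) (he : IsIdempotentL1 e)
    (g : G) (n : ℕ) :
    (∀ (K : Type u) [Field K] (p : ℕ) [Fact p.Prime] [CharP K p]
        (ρ : G →* Matrix (Fin n) (Fin n) K),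
        ¬ IsOfFinOrder (ρ g) → hsCoeff e (ConjClasses.mk g) = 0) ∧
    (∀ (K : Type u) [Field K] [Algebra ℚ K] [Algebra.IsAlgebraic ℚ K]
        (ρ : G →* Matrix (Fin n) (Fin n) K) (lam : K) (x : Fin n → K),
        x ≠ 0 → (ρ g).mulVec x = lam • x → (∀ k : ℕ, 0 < k → lam ^ k ≠ 1) →
        hsCoeff e (ConjClasses.mk g) = 0) ∧
    (∀ (K : Type u) [Field K] (v : AbsoluteValue K ℝ)
        (ρ : G →* Matrix (Fin n) (Fin n) K) (lam : K) (x : Fin n → K),
        x ≠ 0 → (ρ g).mulVec x = lam • x → v lam ≠ 1 →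
        hsCoeff e (ConjClasses.mk g) = 0) ∧
    (∀ (F K : Type u) [Field F] [Field K] [Algebra F K]
        (ρ : G →* Matrix (Fin n) (Fin n) K) (k : ℕ),
        Transcendental F ((ρ g).charpoly.coeff k) → hsCoeff e (ConjClasses.mk g) = 0) := by
  refine ⟨?_, ?_, ?_, ?_⟩
  · intro K _ p _ _ ρ hg
    exact charP_vanishing he p ρ g hg
  · intro K _ _ _ ρ lam x hx hev hnot
    exact algebraic_vanishing he ρ g lam x hx hev hnot
  · intro K _ v ρ lam x hx hev hlam
    exact linear_vanishing v he ρ g lam x hx hev hlam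
  · intro F K _ _ _ ρ k hk
    exact transcendental_coeff_vanishing he ρ g k hk

end Vale.Agent.Results.P184.Linear
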