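import Mathlib
import Vale.Agent.Lib.P184.Defs
import Vale.Agent.Lib.P184.DefsConj
import Vale.Agent.Lib.P184.RFRS

/-!
# The `ℓ¹`-Bass conjecture holds for every RFRS group
-/

namespace Vale.Agent.Results.P184.RFRS

open Vale.Agent.Lib.P184

theorem result (G : Type*) [Group G] (h : IsRFRS G) : L1Bass G :=
  l1Bass_of_isRFRS h

end Vale.Agent.Results.P184.RFRS
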